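import Vale.Agent.P002.Final

namespace Vale.Agent.Results.P002.A_curves

open Matrix NumberField Vale.Agent.P002

theorem result (g s r : ℕ) (hg : s = 0 ∨ 3 ≤ g) (c : Fin s → SpecialLinearGroup (Fin r) ℂ)
    (hc : ∀ k x, (c k).1.charpoly.IsRoot x → ∃ m, 0 < m ∧ x ^ m = 1) :
    ∃ L : IntermediateField ℚ ℂ, FiniteDimensional ℚ L ∧
      ∀ f : MvPolynomial (Gen g s × Fin r × Fin r) ℂ,
        (∀ ρ ∈ Rep g s r ℂ, ∀ P : SpecialLinearGroup (Fin r) ℂ,
          val f (fun v => (P * ρ v * P⁻¹).1) = val f (fun v => (ρ v).1)) →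
        (∀ ρ ∈ Rep g s r (𝓞 L),
          (fun v => SpecialLinearGroup.map (algebraMap (𝓞 L) ℂ) (ρ v)) ∈ YY g s r c →
          val f (fun v => (SpecialLinearGroup.map (algebraMap (𝓞 L) ℂ) (ρ v)).1) = 0) →
        ∀ ρ ∈ YY g s r c, val f (fun v => (ρ v).1) = 0 :=
  final g s r hg c hc

end Vale.Agent.Results.P002.A_curves
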